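import Mathlib

/-!
# The group von Neumann algebra `L(G) = λ(G)''`

We work on a complex Hilbert space `H` with a Hilbert basis `b = (δ_g)` indexed by the group `G`
(for instance `H = ℓ²(G)` with its standard basis).
-/

namespace Vale.Agent.P086

variable {G H : Type*} [Group G] [NormedAddCommGroup H] [InnerProductSpace ℂ H] [CompleteSpace H]

/-- `u` is the left translation operator `λ(g)`: `u δ_h = δ_{g h}` for all `h` -/
def IsLeftTranslation (b : HilbertBasis G ℂ H) (g : G) (u : H →L[ℂ] H) : Prop :=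
  ∀ h : G, u (b h) = b (g * h)

/-- the set `λ(G)` of all left translation operators -/
def leftTranslations (b : HilbertBasis G ℂ H) : Set (H →L[ℂ] H) :=
  {u | ∃ g : G, IsLeftTranslation b g u}

/-- the group von Neumann algebra `L(G) = λ(G)''`, as a set of bounded operators -/
def groupVN (b : HilbertBasis G ℂ H) : Set (H →L[ℂ] H) :=
  Set.centralizer (Set.centralizer (leftTranslations b))

/-- the canonical trace `τ(x) = ⟨x δ_e, δ_e⟩` -/
noncomputable def vnTrace (b : HilbertBasis G ℂ H) (x : H →L[ℂ] H) : ℂ :=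
  inner ℂ (b 1) (x (b 1))

/-- `x` is finitely supported: a finite linear combination of the `λ(g)` -/
def FinSupp (b : HilbertBasis G ℂ H) (x : H →L[ℂ] H) : Prop :=
  x ∈ Submodule.span ℂ (leftTranslations b)

/-- `θ` restricts to a `*`-isomorphism of `L(G)` onto `L(K)` -/
structure IsStarIso {K H' : Type*} [Group K] [NormedAddCommGroup H'] [InnerProductSpace ℂ H']
    [CompleteSpace H'] (b : HilbertBasis G ℂ H) (b' : HilbertBasis K ℂ H')
    (θ : (H →L[ℂ] H) → (H' →L[ℂ] H')) : Prop where
  bij : Set.BijOn θ (groupVN b) (groupVN b')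
  map_add : ∀ x ∈ groupVN b, ∀ y ∈ groupVN b, θ (x + y) = θ x + θ y
  map_mul : ∀ x ∈ groupVN b, ∀ y ∈ groupVN b, θ (x * y) = θ x * θ y
  map_smul : ∀ (c : ℂ), ∀ x ∈ groupVN b, θ (c • x) = c • θ x
  map_star : ∀ x ∈ groupVN b, θ (star x) = star (θ x)

end Vale.Agent.P086
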