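import Mathlib

/-!
# Free groups have the unique product property

The proof uses local indicability: by the Nielsen-Schreier theorem every nontrivial subgroup of a
free group is free, hence has a nontrivial homomorphism to `ℤ`.
-/

namespace Vale.Agent.P086

open Finset

universe u

theorem exists_hom_ne_one (H : Type u) [Group H] [IsFreeGroup H] [Nontrivial H] :
    ∃ ψ : H →* Multiplicative ℤ, ψ ≠ 1 := by
  by_cases hne : Nonempty (IsFreeGroup.Generators H)
  · obtain ⟨a⟩ := hne
    refine ⟨IsFreeGroup.lift (fun _ => Multiplicative.ofAdd 1), fun h => ?_⟩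
    have h1 := IsFreeGroup.lift_of (G := H) (fun _ => Multiplicative.ofAdd (1:ℤ)) a
    rw [h] at h1
    simp only [MonoidHom.one_apply] at h1
    have h2 : (0:ℤ) = 1 := congrArg Multiplicative.toAdd h1
    exact absurd h2 (by norm_num)
  · exfalso
    have h1 : MonoidHom.id H = 1 := IsFreeGroup.ext_hom (fun a => (hne ⟨a⟩).elim)
    obtain ⟨x, y, hxy⟩ := exists_pair_ne H
    apply hxy
    have hx : x = 1 := by
      have := congrArg (fun f : H →* H => f x) h1
      simpa using this
    have hy : y = 1 := by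
      have := congrArg (fun f : H →* H => f y) h1
      simpa using this
    rw [hx, hy]

theorem uniqueMul_aux (G : Type u) [Group G] [IsFreeGroup G] :
    ∀ n : ℕ, ∀ A B : Finset G, A.Nonempty → B.Nonempty → #A + #B ≤ n →
      ∃ a ∈ A, ∃ b ∈ B, UniqueMul A B a b := by
  classical
  intro n
  induction n with
  | zero =>
    intro A B hA hB hn
    have := Finset.card_pos.2 hA
    omega
  | succ n ih =>
    intro A B hA hB hn
    by_cases hc : #A ≤ 1 ∧ #B ≤ 1
    · exact UniqueMul.of_card_le_one hA hB hc.1 hc.2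
    obtain ⟨a0, ha0⟩ := hA
    obtain ⟨b0, hb0⟩ := hB
    set S : Set G := (fun a => a0⁻¹ * a) '' (A : Set G) ∪ (fun b => b * b0⁻¹) '' (B : Set G) with hS
    set H : Subgroup G := Subgroup.closure S with hH
    have hAS : ∀ a ∈ A, a0⁻¹ * a ∈ S := fun a ha => Or.inl ⟨a, ha, rfl⟩
    have hBS : ∀ b ∈ B, b * b0⁻¹ ∈ S := fun b hb => Or.inr ⟨b, hb, rfl⟩
    have hAH : ∀ a ∈ A, a0⁻¹ * a ∈ H := fun a ha => Subgroup.subset_closure (hAS a ha)
    have hBH : ∀ b ∈ B, b * b0⁻¹ ∈ H := fun b hb => Subgroup.subset_closure (hBS b hb)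
    -- `H` is nontrivial
    have hnt : Nontrivial H := by
      have hex : ∃ x ∈ S, x ≠ 1 := by
        by_cases hA1 : #A ≤ 1
        · have hB1 : 1 < #B := by
            by_contra hh
            exact hc ⟨hA1, not_lt.1 hh⟩
          obtain ⟨b, hb, hbne⟩ := Finset.exists_mem_ne hB1 b0
          exact ⟨_, hBS b hb, fun h => hbne (mul_inv_eq_one.1 h)⟩
        · obtain ⟨a, ha, hane⟩ := Finset.exists_mem_ne (not_le.1 hA1) a0
          exact ⟨_, hAS a ha, fun h => hane (inv_mul_eq_one.1 h).symm⟩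
      obtain ⟨x, hx, hx1⟩ := hex
      exact ⟨⟨⟨x, Subgroup.subset_closure hx⟩, 1, fun h => hx1 (congrArg Subtype.val h)⟩⟩
    obtain ⟨ψ, hψ⟩ := exists_hom_ne_one H
    -- `ψ` is nontrivial on `S`
    have hexS : ∃ x, ∃ hx : x ∈ S, ψ ⟨x, Subgroup.subset_closure hx⟩ ≠ 1 := by
      by_contra hcon
      push Not at hcon
      apply hψ
      ext ⟨y, hy⟩
      have : ψ ⟨y, hy⟩ = 1 := by
        refine Subgroup.closure_induction (p := fun x hx => ψ ⟨x, hx⟩ = 1) ?_ ?_ ?_ ?_ hy
        · intro x hx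
          exact hcon x hx
        · exact map_one ψ
        · intro x y hx hy h1 h2
          have e : (⟨x * y, mul_mem hx hy⟩ : H) = ⟨x, hx⟩ * ⟨y, hy⟩ := rfl
          rw [e, map_mul, h1, h2, one_mul]
        · intro x hx h1
          have e : (⟨x⁻¹, inv_mem hx⟩ : H) = (⟨x, hx⟩ : H)⁻¹ := rfl
          rw [e, map_inv, h1, inv_one]
      rw [this]
      rfl
    -- the height function
    set φ : G → ℤ := fun g => if h : g ∈ H then Multiplicative.toAdd (ψ ⟨g, h⟩) else 0 with hφ
    have hφmul : ∀ x y, x ∈ H → y ∈ H → φ (x * y) = φ x + φ y := by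
      intro x y hx hy
      simp only [hφ, dif_pos hx, dif_pos hy, dif_pos (mul_mem hx hy)]
      have e : (⟨x * y, mul_mem hx hy⟩ : H) = ⟨x, hx⟩ * ⟨y, hy⟩ := rfl
      rw [e, map_mul, toAdd_mul]
    have hφone : φ 1 = 0 := by
      simp only [hφ, dif_pos (one_mem H)]
      have e : (⟨1, one_mem H⟩ : H) = 1 := rfl
      rw [e, map_one, toAdd_one]
    obtain ⟨a1, ha1, ha1max⟩ := Finset.exists_max_image A (fun a => φ (a0⁻¹ * a)) ⟨a0, ha0⟩
    obtain ⟨b1, hb1, hb1max⟩ := Finset.exists_max_image B (fun b => φ (b * b0⁻¹)) ⟨b0, hb0⟩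
    set A1 := A.filter (fun a => φ (a0⁻¹ * a) = φ (a0⁻¹ * a1)) with hA1
    set B1 := B.filter (fun b => φ (b * b0⁻¹) = φ (b1 * b0⁻¹)) with hB1
    have hA1ne : A1.Nonempty := ⟨a1, Finset.mem_filter.2 ⟨ha1, rfl⟩⟩
    have hB1ne : B1.Nonempty := ⟨b1, Finset.mem_filter.2 ⟨hb1, rfl⟩⟩
    have hA1le : #A1 ≤ #A := Finset.card_le_card (Finset.filter_subset _ _)
    have hB1le : #B1 ≤ #B := Finset.card_le_card (Finset.filter_subset _ _)
    have hlt : #A1 + #B1 < #A + #B := by
      obtain ⟨x, hx, hxne⟩ := hexS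
      have hxH : x ∈ H := Subgroup.subset_closure hx
      have hxφ : φ x ≠ 0 := by
        have e : φ x = Multiplicative.toAdd (ψ ⟨x, hxH⟩) := by
          simp only [hφ, dif_pos hxH]
        rw [e]
        intro h
        exact hxne (Multiplicative.toAdd.injective (by rw [h, toAdd_one]))
      rcases hx with ⟨a, ha, rfl⟩ | ⟨b, hb, rfl⟩
      · -- `φ` is not constant on `a0⁻¹ A`
        have hss : A1 ⊂ A := by
          rw [Finset.ssubset_iff_of_subset (Finset.filter_subset _ _)]
          by_cases h1 : φ (a0⁻¹ * a) = φ (a0⁻¹ * a1)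
          · refine ⟨a0, ha0, fun h => ?_⟩
            have h2 := (Finset.mem_filter.1 h).2
            rw [inv_mul_cancel, hφone] at h2
            exact hxφ (h1.trans h2.symm)
          · exact ⟨a, ha, fun h => h1 (Finset.mem_filter.1 h).2⟩
        have := Finset.card_lt_card hss
        omega
      · have hss : B1 ⊂ B := by
          rw [Finset.ssubset_iff_of_subset (Finset.filter_subset _ _)]
          by_cases h1 : φ (b * b0⁻¹) = φ (b1 * b0⁻¹)
          · refine ⟨b0, hb0, fun h => ?_⟩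
            have h2 := (Finset.mem_filter.1 h).2
            rw [mul_inv_cancel, hφone] at h2
            exact hxφ (h1.trans h2.symm)
          · exact ⟨b, hb, fun h => h1 (Finset.mem_filter.1 h).2⟩
        have := Finset.card_lt_card hss
        omega
    obtain ⟨a, ha, b, hb, hu⟩ := ih A1 B1 hA1ne hB1ne (by omega)
    have haA := (Finset.mem_filter.1 ha).1
    have hbB := (Finset.mem_filter.1 hb).1
    refine ⟨a, haA, b, hbB, ?_⟩
    intro a' b' ha' hb' he
    have e1 : φ (a0⁻¹ * a') + φ (b' * b0⁻¹) = φ (a0⁻¹ * a) + φ (b * b0⁻¹) := by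
      rw [← hφmul _ _ (hAH a' ha') (hBH b' hb'), ← hφmul _ _ (hAH a haA) (hBH b hbB)]
      congr 1
      calc a0⁻¹ * a' * (b' * b0⁻¹) = a0⁻¹ * (a' * b') * b0⁻¹ := by group
        _ = a0⁻¹ * (a * b) * b0⁻¹ := by rw [he]
        _ = a0⁻¹ * a * (b * b0⁻¹) := by group
    have e2 := (Finset.mem_filter.1 ha).2
    have e3 := (Finset.mem_filter.1 hb).2
    have e4 := ha1max a' ha'
    have e5 := hb1max b' hb'
    apply hu
    · exact Finset.mem_filter.2 ⟨ha', by omega⟩
    · exact Finset.mem_filter.2 ⟨hb', by omega⟩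
    · exact he

/-- free groups have the unique product property -/
theorem uniqueProds_of_isFreeGroup (G : Type u) [Group G] [IsFreeGroup G] : UniqueProds G where
  uniqueMul_of_nonempty {A B} hA hB := uniqueMul_aux G _ A B hA hB le_rfl

theorem twoUniqueProds_of_isFreeGroup (G : Type u) [Group G] [IsFreeGroup G] :
    TwoUniqueProds G :=
  haveI := uniqueProds_of_isFreeGroup G
  UniqueProds.toTwoUniqueProds_of_group

end Vale.Agent.P086
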