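import Vale.Agent.Lib.P086.TrivialUnits
import Vale.Agent.Lib.P086.UniqueProds

/-!
# Isomorphisms of free group factors sending generators to finitely supported elements
-/

namespace Vale.Agent.P086

open scoped InnerProductSpace

variable {α K H H' : Type*} [NormedAddCommGroup H] [InnerProductSpace ℂ H] [CompleteSpace H]
  [NormedAddCommGroup H'] [InnerProductSpace ℂ H'] [CompleteSpace H'] [Group K]

theorem IsStarIso.map_one {G : Type*} [Group G] {b : HilbertBasis G ℂ H} {b' : HilbertBasis K ℂ H'}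
    {θ : (H →L[ℂ] H) → (H' →L[ℂ] H')} (hθ : IsStarIso b b' θ) : θ 1 = 1 := by
  obtain ⟨x, hx, hx1⟩ := hθ.bij.surjOn (one_mem_groupVN b')
  calc θ 1 = θ 1 * θ x := by rw [hx1, mul_one]
    _ = θ (1 * x) := (hθ.map_mul 1 (one_mem_groupVN b) x hx).symm
    _ = 1 := by rw [one_mul, hx1]

theorem vnTrace_smul {G : Type*} [Group G] (b : HilbertBasis G ℂ H) (c : ℂ) (x : H →L[ℂ] H) :
    vnTrace b (c • x) = c * vnTrace b x := by
  unfold vnTrace
  rw [smul_apply, inner_smul_right]

theorem exists_mulEquiv_of_finSupp [TwoUniqueProds K] (b : HilbertBasis (FreeGroup α) ℂ H)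
    (b' : HilbertBasis K ℂ H') (θ : (H →L[ℂ] H) → (H' →L[ℂ] H')) (hθ : IsStarIso b b' θ)
    (htr : ∀ x ∈ groupVN b, vnTrace b' (θ x) = vnTrace b x)
    (hfin : ∀ (a : α) (u : H →L[ℂ] H), IsLeftTranslation b (FreeGroup.of a) u → FinSupp b' (θ u)) :
    Nonempty (FreeGroup α ≃* K) := by
  classical
  have hθ1 := hθ.map_one
  -- the images of the generators are trivial unitaries
  have hiso : ∀ w : FreeGroup α, star (θ (lreg b w)) * θ (lreg b w) = 1 := by
    intro w
    rw [← hθ.map_star _ (lreg_mem_groupVN b w), star_lreg,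
      ← hθ.map_mul _ (lreg_mem_groupVN b _) _ (lreg_mem_groupVN b _), ← lreg_mul, inv_mul_cancel,
      lreg_one, hθ1]
  have htriv : ∀ a : α, ∃ (c : ℂ) (g : K), c ≠ 0 ∧ θ (lreg b (FreeGroup.of a)) = c • lreg b' g :=
    fun a => finSupp_isometry_trivial b' (hfin a _ (isLeftTranslation_lreg b _)) (hiso _)
  choose c g hc hu using htriv
  let φ : FreeGroup α →* K := FreeGroup.lift g
  let χ : FreeGroup α →* ℂˣ := FreeGroup.lift (fun a => Units.mk0 (c a) (hc a))
  let f1 : FreeGroup α →* (H' →L[ℂ] H') :=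
    { toFun := fun w => θ (lreg b w)
      map_one' := by rw [lreg_one, hθ1]
      map_mul' := fun x y => by
        rw [lreg_mul, hθ.map_mul _ (lreg_mem_groupVN b _) _ (lreg_mem_groupVN b _)] }
  let f2 : FreeGroup α →* (H' →L[ℂ] H') :=
    { toFun := fun w => ((χ w : ℂˣ) : ℂ) • lreg b' (φ w)
      map_one' := by rw [map_one, map_one, lreg_one, Units.val_one, one_smul]
      map_mul' := fun x y => by
        rw [map_mul, map_mul, lreg_mul, Units.val_mul, smul_mul_smul_comm] }
  have hf : f1 = f2 := by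
    apply FreeGroup.ext_hom
    intro a
    change θ (lreg b (FreeGroup.of a)) = ((χ (FreeGroup.of a) : ℂˣ) : ℂ) • lreg b' (φ (FreeGroup.of a))
    rw [hu a]
    simp only [φ, χ, FreeGroup.lift_apply_of, Units.val_mk0]
  have hmain : ∀ w, θ (lreg b w) = ((χ w : ℂˣ) : ℂ) • lreg b' (φ w) := fun w =>
    congrArg (fun f : FreeGroup α →* (H' →L[ℂ] H') => f w) hf
  -- injectivity
  have hinj : Function.Injective φ := by
    rw [injective_iff_map_eq_one]
    intro w hw
    have h1 : θ (lreg b w) = θ (((χ w : ℂˣ) : ℂ) • (1 : H →L[ℂ] H)) := by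
      rw [hmain w, hw, lreg_one, hθ.map_smul _ _ (one_mem_groupVN b), hθ1]
    have h2 := hθ.bij.injOn (lreg_mem_groupVN b w) (smul_mem_groupVN b _ (one_mem_groupVN b)) h1
    have h3 : b w = ((χ w : ℂˣ) : ℂ) • b 1 := by
      have := congrArg (fun u : H →L[ℂ] H => u (b 1)) h2
      simpa [lreg_basis] using this
    by_contra hne
    have h4 : ⟪b w, b w⟫_ℂ = ⟪b w, ((χ w : ℂˣ) : ℂ) • b 1⟫_ℂ := by rw [← h3]
    rw [inner_smul_right, inner_basis, inner_basis, if_pos rfl, if_neg hne, mul_zero] at h4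
    exact one_ne_zero h4
  -- surjectivity
  have hsurj : Function.Surjective φ := by
    intro k
    by_contra hk
    push Not at hk
    obtain ⟨y, hy, hyk⟩ := hθ.bij.surjOn (lreg_mem_groupVN b' k)
    have hcoef : ∀ w, ⟪b w, y (b 1)⟫_ℂ = 0 := by
      intro w
      have hmem : star (lreg b w) ∈ groupVN b := by
        rw [star_lreg]; exact lreg_mem_groupVN b _
      rw [← vnTrace_star_lreg_mul, ← htr _ (mul_mem_groupVN b hmem hy), hθ.map_mul _ hmem _ hy,
        hθ.map_star _ (lreg_mem_groupVN b w), hmain w, hyk, star_smul, star_lreg, smul_mul_assoc,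
        ← lreg_mul, vnTrace_smul, vnTrace_lreg, if_neg, mul_zero]
      intro h
      exact hk w (inv_mul_eq_one.1 h)
    have hy0 : y (b 1) = 0 := by
      apply ext_coeff b
      intro w
      rw [hcoef w, inner_zero_right]
    have hyz : y = 0 := eq_zero_of_apply_one b hy hy0
    have hθ0 : θ 0 = 0 := by
      have := hθ.map_smul 0 1 (one_mem_groupVN b)
      rwa [zero_smul, zero_smul] at this
    rw [hyz, hθ0] at hyk
    have h5 : lreg b' k (b' 1) = 0 := by rw [← hyk]; rfl
    rw [lreg_basis] at h5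
    exact b'.orthonormal.ne_zero _ h5
  exact ⟨MulEquiv.ofBijective φ ⟨hinj, hsurj⟩⟩

end Vale.Agent.P086
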