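import Vale.Agent.Lib.P086.Defs

/-!
# Translation operators attached to a Hilbert basis indexed by a group
-/

namespace Vale.Agent.P086

open scoped InnerProductSpace

variable {G H : Type*} [NormedAddCommGroup H] [InnerProductSpace ℂ H] [CompleteSpace H]

set_option linter.unusedSectionVars false

theorem op_mul_apply (u v : H →L[ℂ] H) (x : H) : (u * v) x = u (v x) := rfl

/-- two bounded operators agreeing on a Hilbert basis are equal -/
theorem ext_basis (b : HilbertBasis G ℂ H) {E : Type*} [NormedAddCommGroup E] [NormedSpace ℂ E]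
    {u v : H →L[ℂ] E} (h : ∀ g, u (b g) = v (b g)) : u = v := by
  apply ContinuousLinearMap.ext_on (s := Set.range b)
  · exact Submodule.dense_iff_topologicalClosure_eq_top.2 b.dense_span
  · rintro _ ⟨g, rfl⟩
    exact h g

/-- a vector is determined by its coefficients -/
theorem ext_coeff (b : HilbertBasis G ℂ H) {x y : H} (h : ∀ g, ⟪b g, x⟫_ℂ = ⟪b g, y⟫_ℂ) : x = y := by
  apply b.repr.injective
  ext g
  rw [b.repr_apply_apply, b.repr_apply_apply, h g]

theorem inner_basis (b : HilbertBasis G ℂ H) [DecidableEq G] (g h : G) :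
    ⟪b g, b h⟫_ℂ = if g = h then 1 else 0 :=
  orthonormal_iff_ite.1 b.orthonormal g h

/-- the Hilbert basis `b ∘ e` -/
noncomputable def permBasis (b : HilbertBasis G ℂ H) (e : G ≃ G) : HilbertBasis G ℂ H :=
  HilbertBasis.mk (v := b ∘ e) (b.orthonormal.comp e e.injective) (by
    rw [e.surjective.range_comp, b.dense_span])

theorem permBasis_apply (b : HilbertBasis G ℂ H) (e : G ≃ G) (g : G) :
    permBasis b e g = b (e g) := by
  unfold permBasis
  rw [HilbertBasis.coe_mk]
  rfl

/-- the unitary operator with `δ_g ↦ δ_{e g}` -/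
noncomputable def permOp (b : HilbertBasis G ℂ H) (e : G ≃ G) : H →L[ℂ] H :=
  ((b.repr.trans (permBasis b e).repr.symm).toContinuousLinearEquiv : H →L[ℂ] H)

theorem permOp_basis (b : HilbertBasis G ℂ H) (e : G ≃ G) (g : G) :
    permOp b e (b g) = b (e g) := by
  classical
  unfold permOp
  simp only [ContinuousLinearEquiv.coe_coe, LinearIsometryEquiv.coe_toContinuousLinearEquiv,
    LinearIsometryEquiv.trans_apply]
  rw [b.repr_self, HilbertBasis.repr_symm_single, permBasis_apply]

theorem permOp_mul (b : HilbertBasis G ℂ H) (e f : G ≃ G) :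
    permOp b e * permOp b f = permOp b (f.trans e) := by
  apply ext_basis b
  intro g
  rw [op_mul_apply, permOp_basis, permOp_basis, permOp_basis]
  rfl

theorem permOp_refl (b : HilbertBasis G ℂ H) : permOp b (Equiv.refl G) = 1 := by
  apply ext_basis b
  intro g
  rw [permOp_basis]
  rfl

theorem star_permOp (b : HilbertBasis G ℂ H) (e : G ≃ G) :
    star (permOp b e) = permOp b e.symm := by
  classical
  apply ext_basis b
  intro g
  apply ext_coeff b
  intro h
  rw [ContinuousLinearMap.star_eq_adjoint, ContinuousLinearMap.adjoint_inner_right, permOp_basis,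
    permOp_basis, inner_basis, inner_basis]
  by_cases hh : e h = g
  · rw [if_pos hh, if_pos (by rw [← hh, e.symm_apply_apply])]
  · rw [if_neg hh, if_neg (fun h2 => hh (by rw [h2, e.apply_symm_apply]))]

variable [Group G]

/-- `λ(g)` -/
noncomputable def lreg (b : HilbertBasis G ℂ H) (g : G) : H →L[ℂ] H := permOp b (Equiv.mulLeft g)

/-- `ρ(g)`: `δ_h ↦ δ_{h g⁻¹}` -/
noncomputable def rreg (b : HilbertBasis G ℂ H) (g : G) : H →L[ℂ] H :=
  permOp b (Equiv.mulRight g⁻¹)

theorem lreg_basis (b : HilbertBasis G ℂ H) (g h : G) : lreg b g (b h) = b (g * h) :=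
  permOp_basis b _ h

theorem rreg_basis (b : HilbertBasis G ℂ H) (g h : G) : rreg b g (b h) = b (h * g⁻¹) :=
  permOp_basis b _ h

theorem isLeftTranslation_lreg (b : HilbertBasis G ℂ H) (g : G) :
    IsLeftTranslation b g (lreg b g) := lreg_basis b g

theorem IsLeftTranslation.eq_lreg {b : HilbertBasis G ℂ H} {g : G} {u : H →L[ℂ] H}
    (h : IsLeftTranslation b g u) : u = lreg b g :=
  ext_basis b (fun k => by rw [h k, lreg_basis])

theorem leftTranslations_eq_range (b : HilbertBasis G ℂ H) :
    leftTranslations b = Set.range (lreg b) := by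
  ext u
  constructor
  · rintro ⟨g, hg⟩
    exact ⟨g, hg.eq_lreg.symm⟩
  · rintro ⟨g, rfl⟩
    exact ⟨g, isLeftTranslation_lreg b g⟩

theorem lreg_mul (b : HilbertBasis G ℂ H) (g h : G) : lreg b (g * h) = lreg b g * lreg b h := by
  apply ext_basis b
  intro k
  rw [op_mul_apply, lreg_basis, lreg_basis, lreg_basis, mul_assoc]

theorem lreg_one (b : HilbertBasis G ℂ H) : lreg b 1 = 1 := by
  apply ext_basis b
  intro k
  rw [lreg_basis, one_mul]
  rfl

theorem star_lreg (b : HilbertBasis G ℂ H) (g : G) : star (lreg b g) = lreg b g⁻¹ := by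
  unfold lreg
  rw [star_permOp, Equiv.mulLeft_symm]

theorem lreg_mem_groupVN (b : HilbertBasis G ℂ H) (g : G) : lreg b g ∈ groupVN b :=
  Set.subset_centralizer_centralizer ⟨g, isLeftTranslation_lreg b g⟩

theorem rreg_mem_commutant (b : HilbertBasis G ℂ H) (k : G) :
    rreg b k ∈ Set.centralizer (leftTranslations b) := by
  rw [Set.mem_centralizer_iff]
  rintro u ⟨g, hg⟩
  apply ext_basis b
  intro h
  rw [op_mul_apply, op_mul_apply, rreg_basis, hg, hg, rreg_basis,
    mul_assoc]

theorem groupVN_comm_rreg (b : HilbertBasis G ℂ H) {y : H →L[ℂ] H} (hy : y ∈ groupVN b) (k : G) :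
    rreg b k * y = y * rreg b k :=
  (Set.mem_centralizer_iff.1 hy) _ (rreg_mem_commutant b k)

/-- `δ_e` is separating for `L(G)` -/
theorem eq_zero_of_apply_one (b : HilbertBasis G ℂ H) {y : H →L[ℂ] H} (hy : y ∈ groupVN b)
    (h : y (b 1) = 0) : y = 0 := by
  apply ext_basis b
  intro k
  have e : b k = rreg b k⁻¹ (b 1) := by rw [rreg_basis, inv_inv, one_mul]
  rw [e, ← op_mul_apply, ← groupVN_comm_rreg b hy, op_mul_apply, h,
    map_zero]
  rfl

theorem one_mem_groupVN (b : HilbertBasis G ℂ H) : (1 : H →L[ℂ] H) ∈ groupVN b :=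
  Set.one_mem_centralizer

theorem mul_mem_groupVN (b : HilbertBasis G ℂ H) {x y : H →L[ℂ] H} (hx : x ∈ groupVN b)
    (hy : y ∈ groupVN b) : x * y ∈ groupVN b :=
  Set.mul_mem_centralizer hx hy

theorem smul_mem_groupVN (b : HilbertBasis G ℂ H) (c : ℂ) {x : H →L[ℂ] H} (hx : x ∈ groupVN b) :
    c • x ∈ groupVN b := by
  unfold groupVN at *
  rw [Set.mem_centralizer_iff] at *
  intro m hm
  rw [mul_smul_comm, smul_mul_assoc, hx m hm]

/-- Fourier coefficients as traces -/
theorem vnTrace_star_lreg_mul (b : HilbertBasis G ℂ H) (w : G) (y : H →L[ℂ] H) :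
    vnTrace b (star (lreg b w) * y) = ⟪b w, y (b 1)⟫_ℂ := by
  unfold vnTrace
  rw [op_mul_apply, ContinuousLinearMap.star_eq_adjoint,
    ContinuousLinearMap.adjoint_inner_right, lreg_basis, mul_one]

theorem vnTrace_lreg (b : HilbertBasis G ℂ H) [DecidableEq G] (g : G) :
    vnTrace b (lreg b g) = if g = 1 then 1 else 0 := by
  unfold vnTrace
  rw [lreg_basis, mul_one, inner_basis]
  by_cases h : g = 1
  · rw [if_pos h, if_pos h.symm]
  · rw [if_neg h, if_neg (fun h2 => h h2.symm)]

end Vale.Agent.P086
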