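import Vale.Agent.Lib.P086.Regular

/-!
# Finitely supported isometries in `L(K)` are trivial when `K` has unique products
-/

namespace Vale.Agent.P086

open scoped InnerProductSpace
open Finset

variable {K H : Type*} [NormedAddCommGroup H] [InnerProductSpace ℂ H] [CompleteSpace H] [Group K]

theorem inner_map_map_of_star_mul_self {u : H →L[ℂ] H} (h : star u * u = 1) (x y : H) :
    ⟪u x, u y⟫_ℂ = ⟪x, y⟫_ℂ := by
  rw [← ContinuousLinearMap.adjoint_inner_right, ← ContinuousLinearMap.star_eq_adjoint,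
    ← op_mul_apply, h]
  rfl

theorem finSupp_isometry_trivial [TwoUniqueProds K] (b : HilbertBasis K ℂ H) {u : H →L[ℂ] H}
    (hu : FinSupp b u) (hiso : star u * u = 1) :
    ∃ (c : ℂ) (g : K), c ≠ 0 ∧ u = c • lreg b g := by
  classical
  unfold FinSupp at hu
  rw [leftTranslations_eq_range, Finsupp.mem_span_range_iff_exists_finsupp] at hu
  obtain ⟨c, hc⟩ := hu
  have hcoef : ∀ k x, ⟪b x, u (b k)⟫_ℂ = c (x * k⁻¹) := by
    intro k x
    rw [← hc]
    simp only [Finsupp.sum, _root_.sum_apply, smul_apply,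
      lreg_basis, inner_sum, inner_smul_right, inner_basis]
    rw [Finset.sum_eq_single (x * k⁻¹)]
    · simp
    · intro h _ hne
      rw [if_neg, mul_zero]
      intro hx
      apply hne
      rw [hx, mul_inv_cancel_right]
    · intro hns
      rw [Finsupp.notMem_support_iff.1 hns, zero_mul]
  rcases Nat.lt_or_ge 1 (#c.support) with hcard | hcard
  · -- at least two elements in the support: contradiction
    exfalso
    have hcard' : 1 < #(c.support.image (·⁻¹)) * #c.support := by
      rw [Finset.card_image_of_injective _ inv_injective]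
      nlinarith
    obtain ⟨p1, hp1, p2, hp2, hne, hu1, hu2⟩ := TwoUniqueProds.uniqueMul_of_one_lt_card hcard'
    have hex : ∃ p ∈ (c.support.image (·⁻¹)) ×ˢ c.support,
        UniqueMul (c.support.image (·⁻¹)) c.support p.1 p.2 ∧ p.1 * p.2 ≠ 1 := by
      by_cases h1 : p1.1 * p1.2 = 1
      · refine ⟨p2, hp2, hu2, fun h2 => hne ?_⟩
        have := hu1 (Finset.mem_product.1 hp2).1 (Finset.mem_product.1 hp2).2 (h2.trans h1.symm)
        exact (Prod.ext this.1 this.2).symm
      · exact ⟨p1, hp1, hu1, h1⟩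
    obtain ⟨p, hp, hpu, hp1⟩ := hex
    obtain ⟨hpA, hpB⟩ := Finset.mem_product.1 hp
    obtain ⟨y0, hy0, hy0p⟩ := Finset.mem_image.1 hpA
    set k := p.1 * p.2 with hk
    have hsum := b.hasSum_inner_mul_inner (u (b 1)) (u (b k))
    have hsingle : HasSum (fun i => ⟪u (b 1), b i⟫_ℂ * ⟪b i, u (b k)⟫_ℂ)
        (⟪u (b 1), b p.2⟫_ℂ * ⟪b p.2, u (b k)⟫_ℂ) := by
      apply hasSum_single
      intro i hi
      rw [← inner_conj_symm, hcoef, hcoef, inv_one, mul_one]
      by_cases h1 : i ∈ c.support
      · by_cases h2 : i * k⁻¹ ∈ c.support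
        · exfalso
          apply hi
          have h3 : (i * k⁻¹)⁻¹ ∈ c.support.image (·⁻¹) := Finset.mem_image_of_mem _ h2
          have h4 : (i * k⁻¹)⁻¹ * i = p.1 * p.2 := by
            rw [← hk]; group
          exact (hpu h3 h1 h4).2
        · rw [Finsupp.notMem_support_iff.1 h2, mul_zero]
      · rw [Finsupp.notMem_support_iff.1 h1, map_zero, zero_mul]
    have heq := hsum.unique hsingle
    rw [inner_map_map_of_star_mul_self hiso, inner_basis, if_neg (fun h => hp1 h.symm),
      ← inner_conj_symm, hcoef, hcoef, inv_one, mul_one] at heq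
    have h5 : p.2 * k⁻¹ = y0 := by
      rw [hk, ← hy0p]; group
    rw [h5] at heq
    have h6 : c p.2 ≠ 0 := Finsupp.mem_support_iff.1 hpB
    have h7 : c y0 ≠ 0 := Finsupp.mem_support_iff.1 hy0
    exact (mul_ne_zero ((map_ne_zero _).2 h6) h7) heq.symm
  · rcases Nat.eq_zero_or_pos (#c.support) with h0 | h0
    · exfalso
      rw [Finset.card_eq_zero, Finsupp.support_eq_empty] at h0
      rw [h0, Finsupp.sum_zero_index] at hc
      rw [← hc, mul_zero] at hiso
      have h1 : (0 : H →L[ℂ] H) (b 1) = (1 : H →L[ℂ] H) (b 1) := by rw [hiso]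
      exact b.orthonormal.ne_zero 1 h1.symm
    · have h1 : #c.support = 1 := le_antisymm hcard h0
      obtain ⟨g, hg⟩ := Finset.card_eq_one.1 h1
      refine ⟨c g, g, ?_, ?_⟩
      · apply Finsupp.mem_support_iff.1
        rw [hg]
        exact Finset.mem_singleton_self g
      · rw [← hc, Finsupp.sum, hg, Finset.sum_singleton]

end Vale.Agent.P086
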